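import Mathlib

/-!
# Zone C, region I: the arithmetic of the cells (both passes, `N / R` not small)
-/

noncomputable section

namespace Vale.Agent.P088.R2.H960.X

/-- Sizes at two points: `E = G(u)`, `D = G'(u)`, `N = φ'(u)`, `K = φ''(u)`, `S`, `T = S'(r²)`,
`q`, `q'` the norms, `Q = q + q'`, `d = |q - q'|`, `p = |p - p'|`, `t` the difference of the
levels. -/
structure Nm (M L Cs ε ε₂ E D N K S T q Q d p E' D' N' S' T' q' t : ℝ) : Prop where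
  M1 : 1 ≤ M
  L1 : 1 ≤ L
  C1 : 0 ≤ Cs
  e0 : 0 ≤ ε
  f0 : 0 ≤ ε₂
  f1 : M * ε₂ ≤ 1
  E0 : 0 < E
  K1 : 1 ≤ K
  KE : K ≤ E
  q0 : 0 ≤ q
  q0' : 0 ≤ q'
  qQ : q ≤ Q
  qQ' : q' ≤ Q
  Q1 : Q ≤ 1
  d0 : 0 ≤ d
  dQ : d ≤ Q
  p0 : 0 ≤ p
  t0 : 0 ≤ t
  tt : t ≤ L * p + ε₂ * Q * d
  EE : |E - E'| ≤ 4 * E * t
  DD : |D - D'| ≤ 4 * E * t
  NN : |N - N'| ≤ 2 * K * t
  E2 : E' ≤ 2 * E
  E0' : 0 < E'
  D2' : |D'| ≤ 2 * E'
  S1 : |S| ≤ 2 * M * q ^ 2
  S1' : |S'| ≤ 2 * M * q' ^ 2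
  SS : |S - S'| ≤ (1 + Cs) * (M * (2 * (Q * d) + ε₂ * p * Q ^ 2))
  T0 : |2 * T - 1| ≤ 2 * Cs * (2 * M * q ^ 2)
  T1 : |T| ≤ 1
  T1' : |T'| ≤ 1
  TT : |T - T'| ≤ Cs * (M * (2 * (Q * d) + ε₂ * p * Q ^ 2))
  NE' : N' ≤ E'
  N0' : 0 ≤ N'

variable {M L Cs ε ε₂ E D N K S T q Q d p E' D' N' S' T' q' t : ℝ}

theorem abs_mul_le {x y a b : ℝ} (hx : |x| ≤ a) (hy : |y| ≤ b) : |x * y| ≤ a * b := by
  rw [abs_mul]
  exact mul_le_mul hx hy (abs_nonneg _) ((abs_nonneg _).trans hx)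

theorem abs_tri {x y z a b c : ℝ} (hx : |x| ≤ a) (hy : |y| ≤ b) (hz : |z| ≤ c) :
    |x + y + z| ≤ a + b + c :=
  (abs_add_le _ _).trans (add_le_add ((abs_add_le _ _).trans (add_le_add hx hy)) hz)

/-- Common facts; `A = (K + E Q²) p`, `B = E Q d`. -/
structure Ab (L ε₂ E K Q d p t A B : ℝ) : Prop where
  Q0 : 0 ≤ Q
  Q2 : Q ^ 2 ≤ Q
  A0 : 0 ≤ A
  B0 : 0 ≤ B
  eB : E * Q * d ≤ B
  EQp : E * Q ^ 2 * p ≤ A
  EQd : E * Q ^ 2 * d ≤ B
  pA : p ≤ A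
  KpA : K * p ≤ A
  dK : d ≤ Real.sqrt K
  f1 : ε₂ ≤ 1
  Kt : K * t ≤ L * A + B
  Et : E * Q ^ 2 * t ≤ L * A + B

theorem Nm.ab (h : Nm M L Cs ε ε₂ E D N K S T q Q d p E' D' N' S' T' q' t) :
    Ab L ε₂ E K Q d p t ((K + E * Q ^ 2) * p) (E * Q * d) := by
  have L1 := h.L1
  have M1 := h.M1
  have f0 := h.f0
  have E0 := h.E0
  have K1 := h.K1
  have KE := h.KE
  have d0 := h.d0
  have p0 := h.p0
  have Q1 := h.Q1
  have tt := h.tt
  have Q0 : 0 ≤ Q := h.q0.trans h.qQ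
  have Q2 : Q ^ 2 ≤ Q := by
    rw [pow_two]; exact mul_le_of_le_one_left Q0 Q1
  have f1 : ε₂ ≤ 1 := by
    have : 1 * ε₂ ≤ M * ε₂ := mul_le_mul_of_nonneg_right M1 f0
    linarith [h.f1]
  have sK : 1 ≤ Real.sqrt K := Real.one_le_sqrt.2 K1
  have K0 : 0 ≤ K := by linarith
  have k1 : 0 ≤ E * Q ^ 2 * p := by positivity
  have k2 : 0 ≤ K * p := by positivity
  have hA : (K + E * Q ^ 2) * p = K * p + E * Q ^ 2 * p := by ring
  have B0 : 0 ≤ E * Q * d := by positivity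
  have pK : p ≤ K * p := le_mul_of_one_le_left p0 K1
  refine ⟨Q0, Q2, by rw [hA]; positivity, B0, le_rfl, by rw [hA]; linarith, ?_,
    by rw [hA]; linarith, by rw [hA]; linarith, by linarith [h.dQ], f1, ?_, ?_⟩
  · have : Q ^ 2 * (E * d) ≤ Q * (E * d) := mul_le_mul_of_nonneg_right Q2 (by positivity)
    linarith
  · have h1 := mul_le_mul_of_nonneg_left tt K0
    have h2 : K * (ε₂ * Q * d) ≤ E * Q * d := by
      have : ε₂ * (K * (Q * d)) ≤ 1 * (E * (Q * d)) :=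
        mul_le_mul f1 (mul_le_mul_of_nonneg_right KE (by positivity)) (by positivity) zero_le_one
      linarith
    have h3 : L * (K * p) ≤ L * (K * p + E * Q ^ 2 * p) :=
      mul_le_mul_of_nonneg_left (by linarith) (by linarith)
    rw [hA]
    linarith
  · have h1 := mul_le_mul_of_nonneg_left tt (by positivity : 0 ≤ E * Q ^ 2)
    have h2 : E * Q ^ 2 * (ε₂ * Q * d) ≤ E * Q * d := by
      have h4 : Q ^ 2 * ε₂ ≤ 1 := by
        calc Q ^ 2 * ε₂ ≤ 1 * 1 := mul_le_mul (Q2.trans Q1) f1 f0 zero_le_one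
          _ = 1 := by ring
      calc E * Q ^ 2 * (ε₂ * Q * d) = (Q ^ 2 * ε₂) * (E * Q * d) := by ring
        _ ≤ 1 * (E * Q * d) := mul_le_mul_of_nonneg_right h4 B0
        _ = _ := by ring
    have h3 : L * (E * Q ^ 2 * p) ≤ L * (K * p + E * Q ^ 2 * p) :=
      mul_le_mul_of_nonneg_left (by linarith) (by linarith)
    rw [hA]
    linarith

/-- First group of `W_p`. -/
theorem Nm.g1 (h : Nm M L Cs ε ε₂ E D N K S T q Q d p E' D' N' S' T' q' t) {A B b b' H : ℝ}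
    (a : Ab L ε₂ E K Q d p t A B) (hH : 0 ≤ H) (hb : |b| ≤ 2 * L)
    (hb' : N' * |b - b'| ≤ H * (K * p)) :
    |N * b - N' * b'| ≤ 4 * L * (L * A + B) + H * A := by
  have e : N * b - N' * b' = (N - N') * b + N' * (b - b') := by ring
  have L1 := h.L1
  rw [e]
  refine (abs_add_le _ _).trans (add_le_add ?_ ?_)
  · have h1 := abs_mul_le h.NN hb
    have h2 := mul_le_mul_of_nonneg_left a.Kt (by linarith : 0 ≤ 4 * L)
    linarith
  · rw [abs_mul, abs_of_nonneg h.N0']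
    exact hb'.trans (mul_le_mul_of_nonneg_left a.KpA hH)

/-- Second group of `W_p`. -/
theorem Nm.g2 (h : Nm M L Cs ε ε₂ E D N K S T q Q d p E' D' N' S' T' q' t) {A B b b' : ℝ}
    (a : Ab L ε₂ E K Q d p t A B) (hb : |b| ≤ 2 * L) (hb' : |b - b'| ≤ p) :
    |D * S * b - D' * S' * b'| ≤ (16 * L * M) * (L * A + B)
      + (8 * L * (1 + Cs) * M) * (A + 2 * B) + 8 * M * (A + B) := by
  have L1 := h.L1
  have C1 := h.C1
  have M1 := h.M1
  have E0 := h.E0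
  have d0 := h.d0
  have p0 := h.p0
  have t0 := h.t0
  have f0 := h.f0
  have f1 := a.f1
  have Q0 := a.Q0
  have q0 := h.q0
  have q0' := h.q0'
  have qQ := h.qQ
  have qQ' := h.qQ'
  have E2 := h.E2
  have E0' := h.E0'
  have e : D * S * b - D' * S' * b' = (D - D') * S * b + D' * (S - S') * b
      + D' * S' * (b - b') := by ring
  rw [e]
  refine abs_tri ?_ ?_ ?_
  · refine (abs_mul_le (abs_mul_le h.DD h.S1) hb).trans ?_
    have h2 : 4 * E * t * (2 * M * q ^ 2) * (2 * L) ≤ 4 * E * t * (2 * M * Q ^ 2) * (2 * L) := by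
      gcongr
    have h3 := mul_le_mul_of_nonneg_left a.Et (by positivity : 0 ≤ 16 * L * M)
    have e3 : 4 * E * t * (2 * M * Q ^ 2) * (2 * L) = 16 * L * M * (E * Q ^ 2 * t) := by ring
    rw [e3] at h2
    exact h2.trans h3
  · refine (abs_mul_le (abs_mul_le h.D2' h.SS) hb).trans ?_
    have h2 : 2 * E' * ((1 + Cs) * (M * (2 * (Q * d) + ε₂ * p * Q ^ 2))) * (2 * L)
        ≤ 2 * (2 * E) * ((1 + Cs) * (M * (2 * (Q * d) + 1 * p * Q ^ 2))) * (2 * L) := by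
      gcongr
    refine h2.trans ?_
    have h3 : 2 * (2 * E) * ((1 + Cs) * (M * (2 * (Q * d) + 1 * p * Q ^ 2))) * (2 * L)
        = (8 * L * (1 + Cs) * M) * (E * Q ^ 2 * p + 2 * (E * Q * d)) := by ring
    rw [h3]
    exact mul_le_mul_of_nonneg_left (by linarith [a.EQp, a.eB]) (by positivity)
  · refine (abs_mul_le (abs_mul_le h.D2' h.S1') hb').trans ?_
    have h2 : 2 * E' * (2 * M * q' ^ 2) * p ≤ 2 * (2 * E) * (2 * M * Q ^ 2) * p := by
      gcongr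
    refine h2.trans ?_
    have h4 : 2 * (2 * E) * (2 * M * Q ^ 2) * p = 8 * M * (E * Q ^ 2 * p) := by ring
    rw [h4]
    exact mul_le_mul_of_nonneg_left (by linarith [a.EQp, a.B0]) (by positivity)

/-- Third group of `W_p`. -/
theorem Nm.g3 (h : Nm M L Cs ε ε₂ E D N K S T q Q d p E' D' N' S' T' q' t) {A B f f' : ℝ}
    (a : Ab L ε₂ E K Q d p t A B) (hf : |f| ≤ M * (ε₂ * q ^ 2))
    (hf' : |f - f'| ≤ M * (ε₂ * (Q * d) + ε₂ * p * Q ^ 2)) :
    |E * T * f - E' * T' * f'| ≤ 4 * (L * A + B) + 2 * Cs * M * (A + 2 * B)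
      + 2 * M * (A + B) := by
  have L1 := h.L1
  have C1 := h.C1
  have M1 := h.M1
  have E0 := h.E0
  have d0 := h.d0
  have p0 := h.p0
  have t0 := h.t0
  have f0 := h.f0
  have f1 := a.f1
  have Q0 := a.Q0
  have q0 := h.q0
  have q0' := h.q0'
  have qQ := h.qQ
  have qQ' := h.qQ'
  have E2 := h.E2
  have E0' := h.E0'
  have e : E * T * f - E' * T' * f' = (E - E') * T * f + E' * (T - T') * f
      + E' * T' * (f - f') := by ring
  have Mf : M * (ε₂ * q ^ 2) ≤ Q ^ 2 := by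
    calc M * (ε₂ * q ^ 2) = (M * ε₂) * q ^ 2 := by ring
      _ ≤ 1 * Q ^ 2 := by gcongr; exact h.f1
      _ = _ := by ring
  have Mf1 : M * (ε₂ * q ^ 2) ≤ 1 := Mf.trans (a.Q2.trans h.Q1)
  have hE' : |E'| ≤ 2 * E := by rw [abs_of_pos h.E0']; exact h.E2
  rw [e]
  refine abs_tri ?_ ?_ ?_
  · refine (abs_mul_le (abs_mul_le h.EE h.T1) hf).trans ?_
    have h2 : 4 * E * t * 1 * (M * (ε₂ * q ^ 2)) ≤ 4 * E * t * 1 * Q ^ 2 := by gcongr
    have e3 : 4 * E * t * 1 * Q ^ 2 = 4 * (E * Q ^ 2 * t) := by ring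
    rw [e3] at h2
    linarith [a.Et]
  · refine (abs_mul_le (abs_mul_le hE' h.TT) (hf.trans Mf1)).trans ?_
    have h2 : 2 * E * (Cs * (M * (2 * (Q * d) + ε₂ * p * Q ^ 2))) * 1
        ≤ 2 * E * (Cs * (M * (2 * (Q * d) + 1 * p * Q ^ 2))) * 1 := by gcongr
    refine h2.trans ?_
    have h3 : 2 * E * (Cs * (M * (2 * (Q * d) + 1 * p * Q ^ 2))) * 1
        = (2 * Cs * M) * (E * Q ^ 2 * p + 2 * (E * Q * d)) := by ring
    rw [h3]
    exact mul_le_mul_of_nonneg_left (by linarith [a.EQp, a.eB]) (by positivity)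
  · refine (abs_mul_le (abs_mul_le hE' h.T1') hf').trans ?_
    have h2 : 2 * E * 1 * (M * (ε₂ * (Q * d) + ε₂ * p * Q ^ 2))
        ≤ 2 * E * 1 * (M * (1 * (Q * d) + 1 * p * Q ^ 2)) := by gcongr
    refine h2.trans ?_
    have h3 : 2 * E * 1 * (M * (1 * (Q * d) + 1 * p * Q ^ 2))
        = (2 * M) * (E * Q ^ 2 * p + (E * Q * d)) := by ring
    rw [h3]
    exact mul_le_mul_of_nonneg_left (by linarith [a.EQp, a.eB]) (by positivity)

/-- The constants. -/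
theorem consts {L Cs M : ℝ} (L1 : 1 ≤ L) (C1 : 0 ≤ Cs) (M1 : 1 ≤ M) :
    1 ≤ L ^ 2 * (1 + Cs) * M ∧ L ^ 2 ≤ L ^ 2 * (1 + Cs) * M ∧ L ^ 2 * M ≤ L ^ 2 * (1 + Cs) * M ∧
    L * (1 + Cs) * M ≤ L ^ 2 * (1 + Cs) * M ∧ Cs * M ≤ L ^ 2 * (1 + Cs) * M ∧
    M ≤ L ^ 2 * (1 + Cs) * M ∧ L ≤ L ^ 2 * (1 + Cs) * M ∧ L * M ≤ L ^ 2 * (1 + Cs) * M := by
  have z1 : L ≤ L ^ 2 := by rw [pow_two]; exact le_mul_of_one_le_left (by linarith) L1
  have z0 : 1 ≤ L ^ 2 := L1.trans z1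
  have c1 : 1 ≤ 1 + Cs := by linarith
  have k : 1 ≤ (1 + Cs) * M := one_le_mul_of_one_le_of_one_le c1 M1
  have k0 : 0 ≤ L ^ 2 := by linarith
  have kM : M ≤ (1 + Cs) * M := le_mul_of_one_le_left (by linarith) c1
  have kC : Cs * M ≤ (1 + Cs) * M := mul_le_mul_of_nonneg_right (by linarith) (by linarith)
  have e : L ^ 2 * (1 + Cs) * M = L ^ 2 * ((1 + Cs) * M) := by ring
  have P0 : 0 ≤ (1 + Cs) * M := by positivity
  have a2 : L ^ 2 ≤ L ^ 2 * ((1 + Cs) * M) := le_mul_of_one_le_right k0 k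
  have a3 : L ^ 2 * M ≤ L ^ 2 * ((1 + Cs) * M) := mul_le_mul_of_nonneg_left kM k0
  have a4 : L * ((1 + Cs) * M) ≤ L ^ 2 * ((1 + Cs) * M) := mul_le_mul_of_nonneg_right z1 P0
  have a5 : (1 + Cs) * M ≤ L ^ 2 * ((1 + Cs) * M) := le_mul_of_one_le_left P0 z0
  rw [e]
  refine ⟨z0.trans a2, a2, a3, by rw [mul_assoc]; exact a4, kC.trans a5, kM.trans a5,
    z1.trans a2, le_trans ?_ a3⟩
  exact mul_le_mul_of_nonneg_right z1 (by linarith)

/-- The terms of `W_p`. -/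
theorem Nm.wp (h : Nm M L Cs ε ε₂ E D N K S T q Q d p E' D' N' S' T' q' t)
    {b b' f f' H : ℝ} (hH : 0 ≤ H) (hb : |b| ≤ 2 * L) (hb' : |b - b'| ≤ p)
    (hb2 : N' * |b - b'| ≤ H * (K * p))
    (hf : |f| ≤ M * (ε₂ * q ^ 2))
    (hf' : |f - f'| ≤ M * (ε₂ * (Q * d) + ε₂ * p * Q ^ 2)) :
    |((N + D * S) * b + E * (T * f)) - ((N' + D' * S') * b' + E' * (T' * f'))|
      ≤ ((100 + H) * (L ^ 2 * (1 + Cs) * M)) * ((K + E * Q ^ 2) * p + E * Q * d + Real.sqrt K) := by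
  have a := h.ab
  have e : ((N + D * S) * b + E * (T * f)) - ((N' + D' * S') * b' + E' * (T' * f'))
      = (N * b - N' * b') + (D * S * b - D' * S' * b') + (E * T * f - E' * T' * f') := by ring
  rw [e]
  refine (abs_tri (h.g1 a hH hb hb2) (h.g2 a hb hb') (h.g3 a hf hf')).trans ?_
  obtain ⟨c1, c2, c3, c4, c5, c6, c7, c8⟩ := consts h.L1 h.C1 h.M1
  have sK0 : 0 ≤ Real.sqrt K := Real.sqrt_nonneg _
  have A0 := a.A0
  have B0 := a.B0
  generalize (K + E * Q ^ 2) * p = A at *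
  generalize E * Q * d = B at *
  generalize L ^ 2 * (1 + Cs) * M = Z at *
  have a1 := mul_le_mul_of_nonneg_right c1 A0
  have a2 := mul_le_mul_of_nonneg_right c2 A0
  have a3 := mul_le_mul_of_nonneg_right c3 A0
  have a4 := mul_le_mul_of_nonneg_right c4 A0
  have a5 := mul_le_mul_of_nonneg_right c5 A0
  have a6 := mul_le_mul_of_nonneg_right c6 A0
  have a7 := mul_le_mul_of_nonneg_right c7 A0
  have b1 := mul_le_mul_of_nonneg_right c1 B0
  have b4 := mul_le_mul_of_nonneg_right c4 B0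
  have b5 := mul_le_mul_of_nonneg_right c5 B0
  have b6 := mul_le_mul_of_nonneg_right c6 B0
  have b7 := mul_le_mul_of_nonneg_right c7 B0
  have b8 := mul_le_mul_of_nonneg_right c8 B0
  have s1 := mul_le_mul_of_nonneg_right c1 sK0
  have ZA : 0 ≤ Z * A := mul_nonneg (by linarith) A0
  have ZB : 0 ≤ Z * B := mul_nonneg (by linarith) B0
  have ZK : 0 ≤ Z * Real.sqrt K := mul_nonneg (by linarith) sK0
  have HZA : H * A ≤ H * (Z * A) := mul_le_mul_of_nonneg_left (by linarith) hH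
  have HZB : 0 ≤ H * (Z * B) := mul_nonneg hH ZB
  have HZK : 0 ≤ H * (Z * Real.sqrt K) := mul_nonneg hH ZK
  linarith

/-! ### The terms of `W_q` -/

/-- First group: `N a`. -/
theorem Nm.k1 (h : Nm M L Cs ε ε₂ E D N K S T q Q d p E' D' N' S' T' q' t) {a a' : ℝ}
    (ha : |a| ≤ ε₂ * q) (ha' : |a - a'| ≤ ε₂ * d) :
    |N * a - N' * a'| ≤ (2 * L) * (E * (Q * p)) + (4 * ε₂) * (E * d) := by
  have ab := h.ab
  have L1 := h.L1
  have E0 := h.E0
  have d0 := h.d0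
  have p0 := h.p0
  have f0 := h.f0
  have f1 := ab.f1
  have Q0 := ab.Q0
  have Q2 := ab.Q2
  have Q1 := h.Q1
  have q0 := h.q0
  have qQ := h.qQ
  have K1 := h.K1
  have KE := h.KE
  have t0 := h.t0
  have e : N * a - N' * a' = (N - N') * a + N' * (a - a') := by ring
  rw [e]
  refine (abs_add_le _ _).trans ?_
  have r1 : |(N - N') * a| ≤ (2 * L) * (E * (Q * p)) + (2 * ε₂) * (E * d) := by
    refine (abs_mul_le h.NN ha).trans ?_
    have h1 : 2 * K * t * (ε₂ * q) ≤ 2 * E * (L * p + ε₂ * Q * d) * (ε₂ * Q) := by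
      have := h.tt
      gcongr
    refine h1.trans ?_
    have e1 : 2 * E * (L * p + ε₂ * Q * d) * (ε₂ * Q)
        = ε₂ * ((2 * L) * (E * (Q * p))) + (ε₂ * Q ^ 2) * ((2 * ε₂) * (E * d)) := by ring
    rw [e1]
    have h2 : ε₂ * ((2 * L) * (E * (Q * p))) ≤ 1 * ((2 * L) * (E * (Q * p))) :=
      mul_le_mul_of_nonneg_right f1 (by positivity)
    have h3 : ε₂ * Q ^ 2 ≤ 1 := by
      calc ε₂ * Q ^ 2 ≤ 1 * 1 := mul_le_mul f1 (Q2.trans Q1) (by positivity) zero_le_one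
        _ = 1 := by ring
    have h4 : (ε₂ * Q ^ 2) * ((2 * ε₂) * (E * d)) ≤ 1 * ((2 * ε₂) * (E * d)) :=
      mul_le_mul_of_nonneg_right h3 (by positivity)
    linarith
  have r2 : |N' * (a - a')| ≤ (2 * ε₂) * (E * d) := by
    rw [abs_mul, abs_of_nonneg h.N0']
    have h1 : N' * |a - a'| ≤ (2 * E) * (ε₂ * d) :=
      mul_le_mul (h.NE'.trans h.E2) ha' (abs_nonneg _) (by positivity)
    linarith
  linarith

/-- Second group: `D S a`. -/
theorem Nm.k2 (h : Nm M L Cs ε ε₂ E D N K S T q Q d p E' D' N' S' T' q' t) {a a' : ℝ}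
    (ha : |a| ≤ ε₂ * q) (ha' : |a - a'| ≤ ε₂ * (p + d)) :
    |D * S * a - D' * S' * a'| ≤ (60 * L * (1 + Cs) * M) * (ε₂ * (E * (d + Q * p))) := by
  have ab := h.ab
  have L1 := h.L1
  have C1 := h.C1
  have M1 := h.M1
  have E0 := h.E0
  have d0 := h.d0
  have p0 := h.p0
  have t0 := h.t0
  have f0 := h.f0
  have f1 := ab.f1
  have Q0 := ab.Q0
  have Q2 := ab.Q2
  have Q1 := h.Q1
  have q0 := h.q0
  have q0' := h.q0'
  have qQ := h.qQ
  have qQ' := h.qQ'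
  have E2 := h.E2
  have E0' := h.E0'
  have Lt : t ≤ L * (p + d) := by
    have h1 : ε₂ * Q * d ≤ 1 * 1 * d := by gcongr
    have h2 : d ≤ L * d := le_mul_of_one_le_left d0 L1
    linarith [h.tt]
  have hs : Q * (p + d) ≤ d + Q * p := by
    have : Q * d ≤ 1 * d := mul_le_mul_of_nonneg_right Q1 d0
    linarith
  have hs2 : Q ^ 2 * (p + d) ≤ d + Q * p := by
    have : Q ^ 2 * (p + d) ≤ Q * (p + d) := mul_le_mul_of_nonneg_right Q2 (by linarith)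
    linarith
  have e : D * S * a - D' * S' * a' = (D - D') * S * a + D' * (S - S') * a
      + D' * S' * (a - a') := by ring
  rw [e]
  have X0 : 0 ≤ ε₂ * (E * (d + Q * p)) := by positivity
  have r1 : |(D - D') * S * a| ≤ 8 * L * M * (ε₂ * (E * (d + Q * p))) := by
    refine (abs_mul_le (abs_mul_le h.DD h.S1) ha).trans ?_
    have h2 : 4 * E * t * (2 * M * q ^ 2) * (ε₂ * q)
        ≤ 4 * E * (L * (p + d)) * (2 * M * Q ^ 2) * (ε₂ * 1) := by
      gcongr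
      exact qQ.trans Q1
    refine h2.trans ?_
    have e3 : 4 * E * (L * (p + d)) * (2 * M * Q ^ 2) * (ε₂ * 1)
        = 8 * L * M * (ε₂ * (E * (Q ^ 2 * (p + d)))) := by ring
    rw [e3]
    gcongr
  have r2 : |D' * (S - S') * a| ≤ 8 * (1 + Cs) * M * (ε₂ * (E * (d + Q * p))) := by
    refine (abs_mul_le (abs_mul_le h.D2' h.SS) ha).trans ?_
    have h2 : 2 * E' * ((1 + Cs) * (M * (2 * (Q * d) + ε₂ * p * Q ^ 2))) * (ε₂ * q)
        ≤ 2 * (2 * E) * ((1 + Cs) * (M * (2 * (1 * d) + 1 * p * Q))) * (ε₂ * 1) := by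
      gcongr
      exact qQ.trans Q1
    refine h2.trans ?_
    have e3 : 2 * (2 * E) * ((1 + Cs) * (M * (2 * (1 * d) + 1 * p * Q))) * (ε₂ * 1)
        = 4 * (1 + Cs) * M * (ε₂ * (E * (2 * d + Q * p))) := by ring
    rw [e3]
    have h3 : 4 * (1 + Cs) * M * (ε₂ * (E * (2 * d + Q * p)))
        ≤ 4 * (1 + Cs) * M * (ε₂ * (E * (2 * (d + Q * p)))) := by
      gcongr
      have : 0 ≤ Q * p := by positivity
      linarith
    refine h3.trans (le_of_eq ?_)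
    ring
  have r3 : |D' * S' * (a - a')| ≤ 8 * M * (ε₂ * (E * (d + Q * p))) := by
    refine (abs_mul_le (abs_mul_le h.D2' h.S1') ha').trans ?_
    have h2 : 2 * E' * (2 * M * q' ^ 2) * (ε₂ * (p + d))
        ≤ 2 * (2 * E) * (2 * M * Q ^ 2) * (ε₂ * (p + d)) := by gcongr
    refine h2.trans ?_
    have e3 : 2 * (2 * E) * (2 * M * Q ^ 2) * (ε₂ * (p + d))
        = 8 * M * (ε₂ * (E * (Q ^ 2 * (p + d)))) := by ring
    rw [e3]
    gcongr
  refine (abs_tri r1 r2 r3).trans ?_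
  have j1 : L * M ≤ L * (1 + Cs) * M := by
    have : L * 1 * M ≤ L * (1 + Cs) * M := by gcongr; linarith
    linarith
  have j2 : (1 + Cs) * M ≤ L * (1 + Cs) * M := by
    have : 1 * (1 + Cs) * M ≤ L * (1 + Cs) * M := by gcongr
    linarith
  have j3 : M ≤ L * (1 + Cs) * M := by
    have : 1 * M ≤ (1 + Cs) * M := by gcongr; linarith
    linarith
  have i1 := mul_le_mul_of_nonneg_right j1 X0
  have i2 := mul_le_mul_of_nonneg_right j2 X0
  have i3 := mul_le_mul_of_nonneg_right j3 X0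
  have i4 : 0 ≤ L * (1 + Cs) * M * (ε₂ * (E * (d + Q * p))) := by positivity
  linarith

/-- Third group: `E (2 T g - q)`, `c = q_i`, `g = (g q)_i`. -/
theorem Nm.k3 (h : Nm M L Cs ε ε₂ E D N K S T q Q d p E' D' N' S' T' q' t) {c c' g g' δ : ℝ}
    (hδ : 0 ≤ δ) (hδ1 : δ ≤ 1)
    (hc : |c| ≤ q) (hc' : |c'| ≤ q') (hcc : |c - c'| ≤ d) (hg : |g - c| ≤ δ * q)
    (hg' : |g' - c'| ≤ δ * q')
    (hgg : |(g - c) - (g' - c')| ≤ δ * d + ε₂ * M * (p * Q)) :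
    |(E * (2 * (T * g)) - E' * (2 * (T' * g'))) - E' * (c - c')|
      ≤ (16 * L + 40 * (1 + Cs) * M) * (E * (Q * p))
        + (16 * ε₂ + 4 * δ + 40 * Cs * M * Q ^ 2) * (E * d) := by
  have ab := h.ab
  have L1 := h.L1
  have C1 := h.C1
  have M1 := h.M1
  have E0 := h.E0
  have d0 := h.d0
  have p0 := h.p0
  have t0 := h.t0
  have f0 := h.f0
  have f1 := ab.f1
  have Q0 := ab.Q0
  have Q2 := ab.Q2
  have Q1 := h.Q1
  have q0 := h.q0
  have q0' := h.q0'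
  have qQ := h.qQ
  have qQ' := h.qQ'
  have E2 := h.E2
  have E0' := h.E0'
  have hE' : |E'| ≤ 2 * E := by rw [abs_of_pos h.E0']; exact h.E2
  have gq : |g| ≤ 2 * q := by
    have e : g = (g - c) + c := by ring
    have h1 := abs_add_le (g - c) c
    rw [← e] at h1
    have h2 : δ * q ≤ 1 * q := mul_le_mul_of_nonneg_right hδ1 q0
    linarith
  have gq' : |g'| ≤ 2 * q' := by
    have e : g' = (g' - c') + c' := by ring
    have h1 := abs_add_le (g' - c') c'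
    rw [← e] at h1
    have h2 : δ * q' ≤ 1 * q' := mul_le_mul_of_nonneg_right hδ1 q0'
    linarith
  have e : (E * (2 * (T * g)) - E' * (2 * (T' * g'))) - E' * (c - c')
      = (E - E') * (2 * T * g) + E' * ((2 * T - 1) * (c - c') + 2 * (T - T') * g')
        + E' * (2 * T * ((g - c) - (g' - c'))) := by ring
  rw [e]
  have T2 : |2 * T| ≤ 2 := by rw [abs_mul, abs_two]; linarith [h.T1]
  have r1 : |(E - E') * (2 * T * g)| ≤ 16 * L * (E * (Q * p)) + 16 * ε₂ * (E * d) := by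
    refine (abs_mul_le h.EE (abs_mul_le T2 gq)).trans ?_
    have h2 : 4 * E * t * (2 * (2 * q)) ≤ 4 * E * (L * p + ε₂ * Q * d) * (2 * (2 * Q)) := by
      have := h.tt
      gcongr
    refine h2.trans ?_
    have e3 : 4 * E * (L * p + ε₂ * Q * d) * (2 * (2 * Q))
        = 16 * L * (E * (Q * p)) + 16 * ε₂ * (E * (Q ^ 2 * d)) := by ring
    rw [e3]
    have h4 : 16 * ε₂ * (E * (Q ^ 2 * d)) ≤ 16 * ε₂ * (E * (1 * d)) := by
      gcongr
      exact Q2.trans Q1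
    linarith
  have r2 : |E' * ((2 * T - 1) * (c - c') + 2 * (T - T') * g')|
      ≤ 2 * E * ((4 * Cs * M * Q ^ 2) * d
        + (8 * Cs * M * Q ^ 2) * d + 4 * Cs * M * (Q * p)) := by
    refine abs_mul_le hE' ((abs_add_le _ _).trans ?_)
    have s1 : |(2 * T - 1) * (c - c')| ≤ (4 * Cs * M * Q ^ 2) * d := by
      refine (abs_mul_le h.T0 hcc).trans ?_
      have : 2 * Cs * (2 * M * q ^ 2) * d ≤ 2 * Cs * (2 * M * Q ^ 2) * d := by gcongr
      linarith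
    have s2 : |2 * (T - T') * g'| ≤ (8 * Cs * M * Q ^ 2) * d + 4 * Cs * M * (Q * p) := by
      have h2 : |2 * (T - T')| ≤ 2 * (Cs * (M * (2 * (Q * d) + ε₂ * p * Q ^ 2))) := by
        rw [abs_mul, abs_two]; linarith [h.TT]
      refine (abs_mul_le h2 gq').trans ?_
      have h3 : 2 * (Cs * (M * (2 * (Q * d) + ε₂ * p * Q ^ 2))) * (2 * q')
          ≤ 2 * (Cs * (M * (2 * (Q * d) + 1 * p * Q))) * (2 * Q) := by gcongr
      refine h3.trans ?_
      have e3 : 2 * (Cs * (M * (2 * (Q * d) + 1 * p * Q))) * (2 * Q)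
          = (8 * Cs * M * Q ^ 2) * d + 4 * Cs * M * (Q ^ 2 * p) := by ring
      rw [e3]
      have h4 : 4 * Cs * M * (Q ^ 2 * p) ≤ 4 * Cs * M * (Q * p) := by gcongr
      linarith
    linarith
  have r3 : |E' * (2 * T * ((g - c) - (g' - c')))| ≤ 2 * E * (2 * (δ * d + M * (Q * p))) := by
    refine abs_mul_le hE' ((abs_mul_le T2 hgg).trans ?_)
    have h1 : ε₂ * M * (p * Q) ≤ 1 * M * (p * Q) := by gcongr
    linarith
  refine (abs_tri r1 r2 r3).trans ?_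
  have i1 : 0 ≤ E * (Q * p) := by positivity
  have i2 : 0 ≤ M * (E * (Q * p)) := by positivity
  have i3 : 0 ≤ Cs * (M * (E * (Q * p))) := by positivity
  have i4 : 0 ≤ Cs * (M * (Q ^ 2 * (E * d))) := by positivity
  have e1 : 2 * E * ((4 * Cs * M * Q ^ 2) * d + (8 * Cs * M * Q ^ 2) * d + 4 * Cs * M * (Q * p))
      = 24 * (Cs * (M * (Q ^ 2 * (E * d)))) + 8 * (Cs * (M * (E * (Q * p)))) := by ring
  have e2 : 2 * E * (2 * (δ * d + M * (Q * p))) = 4 * δ * (E * d) + 4 * (M * (E * (Q * p))) := by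
    ring
  have e3 : (16 * L + 40 * (1 + Cs) * M) * (E * (Q * p))
      + (16 * ε₂ + 4 * δ + 40 * Cs * M * Q ^ 2) * (E * d)
      = 16 * L * (E * (Q * p)) + 40 * (M * (E * (Q * p))) + 40 * (Cs * (M * (E * (Q * p))))
        + 16 * ε₂ * (E * d) + 4 * δ * (E * d) + 40 * (Cs * (M * (Q ^ 2 * (E * d)))) := by ring
  rw [e1, e2, e3]
  linarith

end Vale.Agent.P088.R2.H960.X
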